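import Mathlib

open Set Metric Filter Topology

namespace Vale.Agent.P253.R2.H380

lemma sq_expand (z z0 c : ℂ) :
    ‖z - c‖ ^ 2 = ‖z - z0‖ ^ 2 + 2 * ((starRingEnd ℂ (z0 - c)) * (z - z0)).re + ‖z0 - c‖ ^ 2 := by
  simp only [← Complex.normSq_eq_norm_sq, Complex.normSq_apply, Complex.mul_re,
    Complex.sub_re, Complex.sub_im, Complex.conj_re, Complex.conj_im]
  ring

/-- Touching from above: a harmonic polynomial majorant on the circle that fails inside
gives a strictly superharmonic quadratic touching function. -/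
theorem touch_of_majorant {u : ℂ → EReal} {c : ℂ} {r : ℝ}
    (hu : UpperSemicontinuousOn u (closedBall c r))
    (htop : ∀ z ∈ closedBall c r, u z ≠ ⊤)
    (h : Polynomial ℂ) (hb : ∀ z ∈ sphere c r, u z ≤ (((h.eval z).re : ℝ) : EReal))
    {w : ℂ} (hw : w ∈ ball c r) (hc : (((h.eval w).re : ℝ) : EReal) < u w) :
    ∃ (k : Polynomial ℂ) (ε : ℝ) (z0 : ℂ), 0 < ε ∧ z0 ∈ ball c r ∧
      u z0 = (((k.eval z0).re : ℝ) : EReal) ∧
      ∀ z ∈ closedBall c r, u z ≤ (((k.eval z).re - ε * ‖z - z0‖ ^ 2 : ℝ) : EReal) := by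
  have hr : 0 < r := by
    have := mem_ball.1 hw
    exact lt_of_le_of_lt dist_nonneg this
  obtain ⟨a, ha1, ha2⟩ := EReal.lt_iff_exists_real_btwn.1 hc
  have ha1' : (h.eval w).re < a := by exact_mod_cast ha1
  set δ : ℝ := a - (h.eval w).re with hδ
  have hδ0 : 0 < δ := by rw [hδ]; linarith
  set ε : ℝ := δ / (2 * (r ^ 2)) with hε
  have hε0 : 0 < ε := by positivity
  have hεr : ε * r ^ 2 = δ / 2 := by rw [hε]; field_simp
  set g : ℂ → EReal := fun z => u z + ((ε * ‖z - c‖ ^ 2 - (h.eval z).re : ℝ) : EReal) with hg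
  have hgusc : UpperSemicontinuousOn g (closedBall c r) := by
    apply UpperSemicontinuousOn.add' hu
    · apply ContinuousOn.upperSemicontinuousOn
      apply Continuous.continuousOn
      apply continuous_coe_real_ereal.comp
      have : Continuous fun z : ℂ => (h.eval z).re :=
        Complex.continuous_re.comp h.continuous
      fun_prop
    · intro x hx
      exact EReal.continuousAt_add (Or.inr (EReal.coe_ne_bot _)) (Or.inr (EReal.coe_ne_top _))
  obtain ⟨z0, hz0, hmax⟩ := hgusc.exists_isMaxOn ⟨w, ball_subset_closedBall hw⟩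
    (isCompact_closedBall c r)
  have hmax' : ∀ z ∈ closedBall c r, g z ≤ g z0 := fun z hz => hmax hz
  have hgw : ((δ : ℝ) : EReal) < g w := by
    have h1 : ((a : ℝ) : EReal) + ((ε * ‖w - c‖ ^ 2 - (h.eval w).re : ℝ) : EReal) < g w :=
      EReal.add_lt_add_right_coe ha2 _
    refine lt_of_le_of_lt ?_ h1
    rw [← EReal.coe_add, EReal.coe_le_coe_iff, hδ]
    have : 0 ≤ ε * ‖w - c‖ ^ 2 := by positivity
    linarith
  have hgz0 : ((δ : ℝ) : EReal) < g z0 := lt_of_lt_of_le hgw (hmax' w (ball_subset_closedBall hw))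
  have hz0b : z0 ∈ ball c r := by
    rcases (lt_or_eq_of_le (mem_closedBall.1 hz0)) with h1 | h1
    · exact h1
    · exfalso
      have h2 := hb z0 (mem_sphere.2 h1)
      have h3 : g z0 ≤ (((h.eval z0).re : ℝ) : EReal)
          + ((ε * ‖z0 - c‖ ^ 2 - (h.eval z0).re : ℝ) : EReal) := by
        simp only [hg]
        gcongr
      rw [← EReal.coe_add] at h3
      have h4 := lt_of_lt_of_le hgz0 h3
      rw [EReal.coe_lt_coe_iff] at h4
      rw [← dist_eq_norm, h1] at h4
      linarith
  have hnt : u z0 ≠ ⊤ := htop z0 hz0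
  have hnb : u z0 ≠ ⊥ := by
    intro h1
    simp only [hg, h1, EReal.bot_add] at hgz0
    exact not_lt_bot hgz0
  obtain ⟨m, hm⟩ : ∃ m : ℝ, u z0 = (m : EReal) := ⟨(u z0).toReal, (EReal.coe_toReal hnt hnb).symm⟩
  set k : Polynomial ℂ := h - Polynomial.C (2 * ε * (starRingEnd ℂ (z0 - c))) *
    (Polynomial.X - Polynomial.C z0) + Polynomial.C (((m - (h.eval z0).re : ℝ) : ℂ)) with hk
  have hkev : ∀ z, (k.eval z).re = (h.eval z).re
      - 2 * ε * ((starRingEnd ℂ (z0 - c)) * (z - z0)).re + (m - (h.eval z0).re) := by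
    intro z
    simp only [hk, Polynomial.eval_add, Polynomial.eval_sub, Polynomial.eval_mul,
      Polynomial.eval_C, Polynomial.eval_X, Complex.add_re, Complex.sub_re, Complex.ofReal_re]
    congr 2
    rw [mul_assoc (2 * (ε : ℂ))]
    have : (2 * (ε : ℂ)) = ((2 * ε : ℝ) : ℂ) := by push_cast; ring
    rw [this, Complex.re_ofReal_mul]
  refine ⟨k, ε, z0, hε0, hz0b, ?_, ?_⟩
  · rw [hm, hkev]
    simp
  · intro z hz
    have h1 := hmax' z hz
    simp only [hg] at h1
    rw [hm, ← EReal.coe_add] at h1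
    have h2 : u z ≤ ((m + (ε * ‖z0 - c‖ ^ 2 - (h.eval z0).re) : ℝ) : EReal)
        - ((ε * ‖z - c‖ ^ 2 - (h.eval z).re : ℝ) : EReal) := by
      rw [EReal.le_sub_iff_add_le (Or.inl (EReal.coe_ne_bot _)) (Or.inl (EReal.coe_ne_top _))]
      exact h1
    refine h2.trans ?_
    rw [← EReal.coe_sub, EReal.coe_le_coe_iff, hkev, sq_expand z z0 c]
    ring_nf
    exact le_refl _

local instance instTwoPi : Fact (0 < 2 * Real.pi) := Fact.mk Real.two_pi_pos

/-- Trigonometric polynomials are polynomials plus conjugates of polynomials. -/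
lemma span_fourier_poly (p : C(AddCircle (2 * Real.pi), ℂ))
    (hp : p ∈ Submodule.span ℂ (range (@fourier (2 * Real.pi)))) :
    ∃ h1 h2 : Polynomial ℂ, ∀ θ : AddCircle (2 * Real.pi),
      p θ = h1.eval (AddCircle.toCircle θ : ℂ)
        + (starRingEnd ℂ) (h2.eval (AddCircle.toCircle θ : ℂ)) := by
  induction hp using Submodule.span_induction with
  | mem x hx =>
    obtain ⟨n, rfl⟩ := hx
    rcases n with n | n
    · refine ⟨Polynomial.X ^ n, 0, fun θ => ?_⟩
      rw [fourier_apply]
      simp [AddCircle.toCircle_nsmul]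
    · refine ⟨0, Polynomial.X ^ (n + 1), fun θ => ?_⟩
      have : Int.negSucc n = -((n + 1 : ℕ) : ℤ) := by simp [Int.negSucc_eq]
      rw [this, fourier_neg, fourier_apply]
      simp only [Polynomial.eval_zero, zero_add, Polynomial.eval_pow, Polynomial.eval_X]
      rw [natCast_zsmul, AddCircle.toCircle_nsmul, Circle.coe_pow]
  | zero => exact ⟨0, 0, fun θ => by simp⟩
  | add x y hx hy ihx ihy =>
    obtain ⟨a1, a2, ha⟩ := ihx
    obtain ⟨b1, b2, hb⟩ := ihy
    refine ⟨a1 + b1, a2 + b2, fun θ => ?_⟩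
    simp only [ContinuousMap.add_apply, ha, hb, Polynomial.eval_add, map_add]
    ring
  | smul a x hx ih =>
    obtain ⟨a1, a2, ha⟩ := ih
    refine ⟨Polynomial.C a * a1, Polynomial.C ((starRingEnd ℂ) a) * a2, fun θ => ?_⟩
    simp only [ContinuousMap.smul_apply, ha, smul_eq_mul, Polynomial.eval_mul,
      Polynomial.eval_C, map_mul, Complex.conj_conj]
    ring

/-- A continuous function on a circle with mean value below `A` has a harmonic polynomial majorant
whose value at the centre is still below `A`. -/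
theorem exists_poly_majorant {u : ℂ → ℝ} {c : ℂ} {r : ℝ} (hr : 0 < r)
    (hu : ContinuousOn u (sphere c r)) {A : ℝ} (hA : Real.circleAverage u c r < A) :
    ∃ h : Polynomial ℂ, (∀ z ∈ sphere c r, u z < (h.eval z).re) ∧ (h.eval c).re < A := by
  set δ : ℝ := (A - Real.circleAverage u c r) / 3 with hδ
  have hδ0 : 0 < δ := by rw [hδ]; linarith
  have hrc : (r : ℂ) ≠ 0 := by exact_mod_cast hr.ne'
  have hmem : ∀ θ : AddCircle (2 * Real.pi), c + r * (AddCircle.toCircle θ : ℂ) ∈ sphere c r := by
    intro θ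
    simp [abs_of_pos hr, Circle.norm_coe]
  set v : C(AddCircle (2 * Real.pi), ℂ) :=
    ⟨fun θ => ((u (c + r * (AddCircle.toCircle θ : ℂ)) : ℝ) : ℂ), by
      apply Complex.continuous_ofReal.comp
      apply hu.comp_continuous _ hmem
      have := AddCircle.continuous_toCircle (T := 2 * Real.pi)
      fun_prop⟩ with hv
  have hvcl : v ∈ (Submodule.span ℂ (range (@fourier (2 * Real.pi)))).topologicalClosure := by
    rw [span_fourier_closure_eq_top]
    trivial
  rw [← SetLike.mem_coe, Submodule.topologicalClosure_coe, Metric.mem_closure_iff] at hvcl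
  obtain ⟨p, hp, hpd⟩ := hvcl δ hδ0
  obtain ⟨h1, h2, hh⟩ := span_fourier_poly p hp
  set h0 : Polynomial ℂ := h1 + h2 + Polynomial.C (δ : ℂ) with hh0
  have hre : ∀ θ, (h0.eval (AddCircle.toCircle θ : ℂ)).re = (p θ).re + δ := by
    intro θ
    rw [hh θ, hh0]
    simp
  set h : Polynomial ℂ := h0.comp (Polynomial.C ((r : ℂ)⁻¹) * (Polynomial.X - Polynomial.C c)) with hhd
  have key : ∀ z ∈ sphere c r, |u z + δ - (h.eval z).re| < δ := by
    intro z hz
    have hz' : ‖(r : ℂ)⁻¹ * (z - c)‖ = 1 := by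
      rw [norm_mul, norm_inv, Complex.norm_real, Real.norm_eq_abs, abs_of_pos hr,
        ← dist_eq_norm, mem_sphere.1 hz]
      field_simp
    obtain ⟨θ, hθ⟩ : ∃ θ : AddCircle (2 * Real.pi),
        (AddCircle.toCircle θ : ℂ) = (r : ℂ)⁻¹ * (z - c) := by
      refine ⟨(((r : ℂ)⁻¹ * (z - c)).arg : ℝ), ?_⟩
      rw [AddCircle.toCircle_apply_mk, Circle.coe_exp]
      have h3 := Complex.norm_mul_exp_arg_mul_I ((r : ℂ)⁻¹ * (z - c))
      rw [hz', Complex.ofReal_one, one_mul] at h3
      rw [div_self Real.two_pi_pos.ne', one_mul, h3]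
    have hzθ : c + r * (AddCircle.toCircle θ : ℂ) = z := by
      rw [hθ]
      field_simp
      ring
    have e1 : (h.eval z).re = (p θ).re + δ := by
      rw [hhd, Polynomial.eval_comp]
      simp only [Polynomial.eval_mul, Polynomial.eval_C, Polynomial.eval_sub, Polynomial.eval_X]
      rw [← hθ, hre]
    have e2 : ‖v θ - p θ‖ < δ := by
      rw [← dist_eq_norm]
      exact lt_of_le_of_lt (ContinuousMap.dist_apply_le_dist θ) hpd
    have e3 : v θ = ((u z : ℝ) : ℂ) := by
      rw [hv]
      simp only [ContinuousMap.coe_mk]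
      rw [hzθ]
    rw [e1]
    have e4 : |(v θ - p θ).re| ≤ ‖v θ - p θ‖ := Complex.abs_re_le_norm _
    rw [e3] at e4 e2
    simp only [Complex.sub_re, Complex.ofReal_re] at e4
    have : u z + δ - ((p θ).re + δ) = u z - (p θ).re := by ring
    rw [this]
    linarith
  refine ⟨h, fun z hz => ?_, ?_⟩
  · have := (abs_lt.1 (key z hz)).2
    linarith
  · have hhd' : DiffContOnCl ℂ (fun z => h.eval z) (ball c |r|) :=
      h.differentiable.diffContOnCl
    have hmv : Real.circleAverage (fun z => h.eval z) c r = h.eval c := hhd'.circleAverage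
    have hci : CircleIntegrable (fun z => h.eval z) c r :=
      (h.continuous.continuousOn).circleIntegrable'
    have hmv2 := Complex.reCLM.circleAverage_comp_comm hci
    rw [hmv] at hmv2
    have hmv3 : (h.eval c).re = Real.circleAverage (Complex.reCLM ∘ fun z => h.eval z) c r := by
      rw [hmv2]; rfl
    rw [hmv3]
    have hui : CircleIntegrable u c r := hu.circleIntegrable hr.le
    have hconst : CircleIntegrable (fun _ : ℂ => 2 * δ) c r :=
      continuousOn_const.circleIntegrable hr.le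
    have hre_i : CircleIntegrable (Complex.reCLM ∘ fun z => h.eval z) c r := by
      apply ContinuousOn.circleIntegrable hr.le
      exact (Complex.continuous_re.comp h.continuous).continuousOn
    have hle : Real.circleAverage (Complex.reCLM ∘ fun z => h.eval z) c r
        ≤ Real.circleAverage (fun z => u z + 2 * δ) c r := by
      apply Real.circleAverage_mono hre_i (CircleIntegrable.add hui hconst)
      intro x hx
      rw [abs_of_pos hr] at hx
      have := (abs_lt.1 (key x hx)).1
      simp only [Function.comp_apply, Complex.reCLM_apply]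
      change _ ≤ u x + 2 * δ
      linarith
    rw [Real.circleAverage_fun_add hui hconst, Real.circleAverage_const] at hle
    have : A = Real.circleAverage u c r + 3 * δ := by rw [hδ]; ring
    linarith

end Vale.Agent.P253.R2.H380
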