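import Mathlib

open Set Metric Filter Topology MeasureTheory

namespace Vale.Agent.P253.R2.H380

lemma ins0 (b : ℝ) (x : Fin 2 → ℝ) :
    (Fin.insertNth (0 : Fin 3) b x : Fin 3 → ℝ) = ![b, x 0, x 1] := by
  funext j; fin_cases j <;> rfl

lemma ins1 (b : ℝ) (x : Fin 2 → ℝ) :
    (Fin.insertNth (1 : Fin 3) b x : Fin 3 → ℝ) = ![x 0, b, x 1] := by
  funext j; fin_cases j <;> rfl

lemma ins2 (b : ℝ) (x : Fin 2 → ℝ) :
    (Fin.insertNth (2 : Fin 3) b x : Fin 3 → ℝ) = ![x 0, x 1, b] := by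
  funext j; fin_cases j <;> rfl

/-- Divergence free fields on a slab: the flux through the faces `p 0 = s` is bounded, if the
lateral flux is. -/
lemma flux_bound {A : Fin 3 → (Fin 3 → ℝ) → ℝ} {a : ℝ} (ha : 0 < a)
    {V : Set (Fin 3 → ℝ)} (hV : IsOpen V) (hA : ∀ i, ContDiffOn ℝ 1 (A i) V)
    (hdiv : ∀ p ∈ V, ∑ i, fderiv ℝ (A i) p (Pi.single i 1) = 0)
    (hV1 : ∀ p : Fin 3 → ℝ, p 0 ∈ Ioc (0 : ℝ) 1 → p 1 ∈ Icc (-a) a → p 2 ∈ Icc (-a) a → p ∈ V)
    (hV0 : ∀ p : Fin 3 → ℝ, p 0 ∈ Icc (0 : ℝ) 1 → p 1 ∈ Icc (-a) a → p 2 ∈ Icc (-a) a →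
      (|p 1| = a ∨ |p 2| = a) → p ∈ V) :
    ∃ C, ∀ s ∈ Ioc (0 : ℝ) 1,
      |∫ x in Icc (fun _ : Fin 2 => -a) (fun _ => a), A 0 (Fin.insertNth 0 s x)| ≤ C := by
  -- lateral faces
  set L : Set (Fin 3 → ℝ) := Icc ![0, -a, -a] ![1, a, a] ∩
    ({p | |p 1| = a} ∪ {p | |p 2| = a}) with hL
  have hLc : IsCompact L := by
    apply isCompact_Icc.inter_right
    apply IsClosed.union
    · exact isClosed_eq (by fun_prop) continuous_const
    · exact isClosed_eq (by fun_prop) continuous_const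
  have hLV : L ⊆ V := by
    rintro p ⟨⟨h1, h2⟩, h3⟩
    have e0 := h1 0; have e1 := h1 1; have e2 := h1 2
    have f0 := h2 0; have f1 := h2 1; have f2 := h2 2
    simp at e0 e1 e2 f0 f1 f2
    exact hV0 p ⟨e0, f0⟩ ⟨e1, f1⟩ ⟨e2, f2⟩ h3
  obtain ⟨M1, hM1⟩ := hLc.exists_bound_of_continuousOn ((hA 1).continuousOn.mono hLV)
  obtain ⟨M2, hM2⟩ := hLc.exists_bound_of_continuousOn ((hA 2).continuousOn.mono hLV)
  set M : ℝ := max (max M1 M2) 0 with hM
  set J : ℝ → ℝ := fun s => ∫ x in Icc (fun _ : Fin 2 => -a) (fun _ => a),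
    A 0 (Fin.insertNth 0 s x) with hJ
  refine ⟨|J 1| + 4 * (M * (2 * a)), fun s hs => ?_⟩
  change |J s| ≤ _
  set lo : Fin 3 → ℝ := ![s, -a, -a] with hlo
  set hi : Fin 3 → ℝ := ![1, a, a] with hhi
  have hle : lo ≤ hi := by
    intro i
    fin_cases i <;> simp [hlo, hhi, hs.2] <;> linarith
  have hboxV : Icc lo hi ⊆ V := by
    rintro p ⟨h1, h2⟩
    have e0 := h1 0; have e1 := h1 1; have e2 := h1 2
    have f0 := h2 0; have f1 := h2 1; have f2 := h2 2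
    simp [hlo, hhi] at e0 e1 e2 f0 f1 f2
    exact hV1 p ⟨lt_of_lt_of_le hs.1 e0, f0⟩ ⟨e1, f1⟩ ⟨e2, f2⟩
  have hdiff : ∀ p ∈ V, ∀ i, HasFDerivAt (A i) (fderiv ℝ (A i) p) p := fun p hp i =>
    (((hA i).contDiffAt (hV.mem_nhds hp)).differentiableAt (by norm_num)).hasFDerivAt
  have hmain := integral_divergence_of_hasFDerivAt_off_countable' lo hi hle A
    (fun i p => fderiv ℝ (A i) p) ∅ countable_empty
    (fun i => (hA i).continuousOn.mono hboxV)
    (by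
      rintro p ⟨hp, -⟩ i
      apply hdiff p _ i
      apply hboxV
      rw [← pi_univ_Icc]
      exact fun j hj => Ioo_subset_Icc_self (hp j hj))
    (by
      apply IntegrableOn.congr_fun (f := fun _ => (0 : ℝ)) integrableOn_zero _ measurableSet_Icc
      intro p hp
      exact (hdiv p (hboxV hp)).symm)
  have hzero : (∫ x in Icc lo hi, ∑ i, fderiv ℝ (A i) x (Pi.single i 1)) = 0 := by
    rw [setIntegral_congr_fun measurableSet_Icc (g := fun _ => (0 : ℝ))]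
    · simp
    · intro p hp
      exact hdiv p (hboxV hp)
  rw [hzero, Fin.sum_univ_three] at hmain
  have hM0 : 0 ≤ M := le_max_right _ _
  have hM1' : ∀ p ∈ L, |A 1 p| ≤ M := fun p hp =>
    (hM1 p hp).trans (le_trans (le_max_left _ _) (le_max_left _ _))
  have hM2' : ∀ p ∈ L, |A 2 p| ≤ M := fun p hp =>
    (hM2 p hp).trans (le_trans (le_max_right _ _) (le_max_left _ _))
  have e0 : (lo ∘ Fin.succAbove 0) = fun _ : Fin 2 => -a := by
    funext j; fin_cases j <;> simp [hlo]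
  have f0 : (hi ∘ Fin.succAbove 0) = fun _ : Fin 2 => a := by
    funext j; fin_cases j <;> simp [hhi]
  have e1 : (lo ∘ Fin.succAbove 1) = ![s, -a] := by
    funext j; fin_cases j <;> simp [hlo, Fin.succAbove]
  have f1 : (hi ∘ Fin.succAbove 1) = ![1, a] := by
    funext j; fin_cases j <;> simp [hhi, Fin.succAbove]
  have e2 : (lo ∘ Fin.succAbove 2) = ![s, -a] := by
    funext j; fin_cases j <;> simp [hlo, Fin.succAbove]
  have f2 : (hi ∘ Fin.succAbove 2) = ![1, a] := by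
    funext j; fin_cases j <;> simp [hhi, Fin.succAbove]
  have hvol : (volume : Measure (Fin 2 → ℝ)).real (Icc ![s, -a] ![1, a]) ≤ 2 * a := by
    have hle2 : (![s, -a] : Fin 2 → ℝ) ≤ ![1, a] := by
      intro i
      fin_cases i
      · simpa using hs.2
      · simp; linarith
    rw [Measure.real, Real.volume_Icc_pi_toReal hle2]
    simp [Fin.prod_univ_two]
    nlinarith [hs.1, hs.2]
  have hfin : (volume : Measure (Fin 2 → ℝ)) (Icc ![s, -a] ![1, a]) < ⊤ :=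
    isCompact_Icc.measure_lt_top
  have lat : ∀ (φ : (Fin 2 → ℝ) → ℝ), (∀ x ∈ Icc (![s, -a] : Fin 2 → ℝ) ![1, a], |φ x| ≤ M) →
      |∫ x in Icc (![s, -a] : Fin 2 → ℝ) ![1, a], φ x| ≤ M * (2 * a) := by
    intro φ hφ
    have := norm_setIntegral_le_of_norm_le_const hfin (f := φ) (C := M) hφ
    refine this.trans ?_
    exact mul_le_mul_of_nonneg_left hvol hM0
  have m1 : ∀ b : ℝ, |b| = a → ∀ x ∈ Icc (![s, -a] : Fin 2 → ℝ) ![1, a],
      (Fin.insertNth (1 : Fin 3) b x : Fin 3 → ℝ) ∈ L := by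
    intro b hb x hx
    have g0 := hx.1 0; have g1 := hx.1 1
    have g2 := hx.2 0; have g3 := hx.2 1
    simp only [Matrix.cons_val_zero, Matrix.cons_val_one] at g0 g1 g2 g3
    have hb' := abs_le.1 hb.le
    rw [ins1]
    refine ⟨⟨?_, ?_⟩, Or.inl ?_⟩
    · intro j; fin_cases j
      · exact le_trans hs.1.le g0
      · exact hb'.1
      · exact g1
    · intro j; fin_cases j
      · exact g2
      · exact hb'.2
      · exact g3
    · exact hb
  have m2 : ∀ b : ℝ, |b| = a → ∀ x ∈ Icc (![s, -a] : Fin 2 → ℝ) ![1, a],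
      (Fin.insertNth (2 : Fin 3) b x : Fin 3 → ℝ) ∈ L := by
    intro b hb x hx
    have g0 := hx.1 0; have g1 := hx.1 1
    have g2 := hx.2 0; have g3 := hx.2 1
    simp only [Matrix.cons_val_zero, Matrix.cons_val_one] at g0 g1 g2 g3
    have hb' := abs_le.1 hb.le
    rw [ins2]
    refine ⟨⟨?_, ?_⟩, Or.inr ?_⟩
    · intro j; fin_cases j
      · exact le_trans hs.1.le g0
      · exact g1
      · exact hb'.1
    · intro j; fin_cases j
      · exact g2
      · exact g3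
      · exact hb'.2
    · exact hb
  have ha1 : |a| = a := abs_of_pos ha
  have ha2 : |(-a)| = a := by rw [abs_neg]; exact ha1
  have hi1 : hi 1 = a := by simp [hhi]
  have hi2 : hi 2 = a := by simp [hhi]
  have lo1 : lo 1 = -a := by simp [hlo]
  have lo2 : lo 2 = -a := by simp [hlo]
  have hi0 : hi 0 = 1 := by simp [hhi]
  have lo0 : lo 0 = s := by simp [hlo]
  rw [e0, f0, e1, f1, e2, f2, hi0, lo0, hi1, lo1, hi2, lo2] at hmain
  have l1 := lat (fun x => A 1 (Fin.insertNth 1 a x)) (fun x hx => hM1' _ (m1 a ha1 x hx))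
  have l2 := lat (fun x => A 1 (Fin.insertNth 1 (-a) x)) (fun x hx => hM1' _ (m1 (-a) ha2 x hx))
  have l3 := lat (fun x => A 2 (Fin.insertNth 2 a x)) (fun x hx => hM2' _ (m2 a ha1 x hx))
  have l4 := lat (fun x => A 2 (Fin.insertNth 2 (-a) x)) (fun x hx => hM2' _ (m2 (-a) ha2 x hx))
  change 0 = (J 1 - J s) + _ + _ at hmain
  rw [abs_le] at l1 l2 l3 l4 ⊢
  have hJ1 := le_abs_self (J 1)
  have hJ2 := neg_abs_le (J 1)
  constructor <;> linarith

/-- Derivative of a pulled back two-form evaluated on constant directions. -/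
lemma hasFDerivAt_pull {P E : Type*} [NormedAddCommGroup P] [NormedSpace ℝ P]
    [NormedAddCommGroup E] [NormedSpace ℝ E] {ω : E → E →L[ℝ] E →L[ℝ] ℝ} {H : P → E} {p : P}
    (hH : ContDiffAt ℝ 2 H p) (hω : ContDiffAt ℝ 1 ω (H p)) (v w u : P) :
    fderiv ℝ (fun q => ω (H q) (fderiv ℝ H q v) (fderiv ℝ H q w)) p u
      = fderiv ℝ ω (H p) (fderiv ℝ H p u) (fderiv ℝ H p v) (fderiv ℝ H p w)
        + ω (H p) (fderiv ℝ (fderiv ℝ H) p u v) (fderiv ℝ H p w)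
        + ω (H p) (fderiv ℝ H p v) (fderiv ℝ (fderiv ℝ H) p u w) := by
  have h1 : HasFDerivAt H (fderiv ℝ H p) p := (hH.differentiableAt (by norm_num)).hasFDerivAt
  have h2 : HasFDerivAt (fderiv ℝ H) (fderiv ℝ (fderiv ℝ H) p) p := by
    have : ContDiffAt ℝ 1 (fderiv ℝ H) p := hH.fderiv_right (by norm_num)
    exact (this.differentiableAt (by norm_num)).hasFDerivAt
  have h3 : HasFDerivAt ω (fderiv ℝ ω (H p)) (H p) :=
    (hω.differentiableAt (by norm_num)).hasFDerivAt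
  have h4 : HasFDerivAt (fun q => ω (H q)) ((fderiv ℝ ω (H p)).comp (fderiv ℝ H p)) p :=
    HasFDerivAt.comp (g := ω) (g' := fderiv ℝ ω (H p)) p h3 h1
  have hv : HasFDerivAt (fun q => fderiv ℝ H q v) _ p := h2.clm_apply (hasFDerivAt_const v p)
  have hw : HasFDerivAt (fun q => fderiv ℝ H q w) _ p := h2.clm_apply (hasFDerivAt_const w p)
  have h5 := (h4.clm_apply hv).clm_apply hw
  rw [h5.fderiv]
  simp
  ring

/-- Area bound for a family of discs (integral over the closed square). -/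
theorem area_bound {E : Type*} [NormedAddCommGroup E] [NormedSpace ℝ E] {G : Set E}
    (hG : IsOpen G) {ω : E → E →L[ℝ] E →L[ℝ] ℝ} (hω : ContDiffOn ℝ 1 ω G)
    (hanti : ∀ x ∈ G, ∀ v w, ω x v w = -ω x w v)
    (hcl : ∀ x ∈ G, ∀ u v w,
      fderiv ℝ ω x u v w + fderiv ℝ ω x v w u + fderiv ℝ ω x w u v = 0)
    {a : ℝ} (ha : 0 < a) {F : ℝ → ℂ → E} {W : Set (ℝ × ℂ)} (hW : IsOpen W)
    (hF : ContDiffOn ℝ 2 (fun p : ℝ × ℂ => F p.1 p.2) W)
    (hKW : ∀ s ∈ Icc (0 : ℝ) 1, ∀ z : ℂ, |z.re| ≤ a → |z.im| ≤ a → (s, z) ∈ W)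
    (h1 : ∀ s ∈ Ioc (0 : ℝ) 1, ∀ z : ℂ, |z.re| ≤ a → |z.im| ≤ a → F s z ∈ G)
    (h0 : ∀ z : ℂ, |z.re| ≤ a → |z.im| ≤ a → (|z.re| = a ∨ |z.im| = a) → F 0 z ∈ G) :
    ∃ C, ∀ s ∈ Ioc (0 : ℝ) 1,
      |∫ z in {z : ℂ | |z.re| ≤ a ∧ |z.im| ≤ a},
        ω (F s z) (fderiv ℝ (F s) z 1) (fderiv ℝ (F s) z Complex.I)| ≤ C := by
  -- coordinates
  let Ψ : (Fin 3 → ℝ) →L[ℝ] ℝ × ℂ :=
    (ContinuousLinearMap.proj 0).prod
      ((ContinuousLinearMap.proj 1 : (Fin 3 → ℝ) →L[ℝ] ℝ).smulRight (1 : ℂ)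
        + (ContinuousLinearMap.proj 2 : (Fin 3 → ℝ) →L[ℝ] ℝ).smulRight Complex.I)
  have hΨ : ∀ p, Ψ p = (p 0, (p 1 : ℂ) + p 2 * Complex.I) := by
    intro p
    simp [Ψ]
  have hre : ∀ p : Fin 3 → ℝ, (Ψ p).2.re = p 1 := by intro p; simp [hΨ]
  have him : ∀ p : Fin 3 → ℝ, (Ψ p).2.im = p 2 := by intro p; simp [hΨ]
  have hst : ∀ p : Fin 3 → ℝ, (Ψ p).1 = p 0 := by intro p; simp [hΨ]
  set H : (Fin 3 → ℝ) → E := fun p => F (Ψ p).1 (Ψ p).2 with hH
  set V0 : Set (Fin 3 → ℝ) := Ψ ⁻¹' W with hV0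
  have hV0o : IsOpen V0 := hW.preimage Ψ.continuous
  have hH2 : ContDiffOn ℝ 2 H V0 := hF.comp Ψ.contDiff.contDiffOn (fun p hp => hp)
  set V : Set (Fin 3 → ℝ) := V0 ∩ H ⁻¹' G with hV
  have hVo : IsOpen V := hH2.continuousOn.isOpen_inter_preimage hV0o hG
  have hHat : ∀ p ∈ V, ContDiffAt ℝ 2 H p := fun p hp => hH2.contDiffAt (hV0o.mem_nhds hp.1)
  have hωat : ∀ p ∈ V, ContDiffAt ℝ 1 ω (H p) := fun p hp => hω.contDiffAt (hG.mem_nhds hp.2)
  set e : Fin 3 → (Fin 3 → ℝ) := fun i => Pi.single i 1 with he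
  set A : Fin 3 → (Fin 3 → ℝ) → ℝ := ![
    fun q => ω (H q) (fderiv ℝ H q (e 1)) (fderiv ℝ H q (e 2)),
    fun q => ω (H q) (fderiv ℝ H q (e 2)) (fderiv ℝ H q (e 0)),
    fun q => ω (H q) (fderiv ℝ H q (e 0)) (fderiv ℝ H q (e 1))] with hA
  have hC1 : ∀ v w : Fin 3 → ℝ,
      ContDiffOn ℝ 1 (fun q => ω (H q) (fderiv ℝ H q v) (fderiv ℝ H q w)) V := by
    intro v w p hp
    apply ContDiffAt.contDiffWithinAt
    have a1 : ContDiffAt ℝ 1 (fun q => ω (H q)) p :=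
      (hωat p hp).comp p ((hHat p hp).of_le (by norm_num))
    have a2 : ContDiffAt ℝ 1 (fderiv ℝ H) p := (hHat p hp).fderiv_right (by norm_num)
    exact (a1.clm_apply (a2.clm_apply contDiffAt_const)).clm_apply (a2.clm_apply contDiffAt_const)
  have hAC : ∀ i, ContDiffOn ℝ 1 (A i) V := by
    intro i
    fin_cases i
    · exact hC1 _ _
    · exact hC1 _ _
    · exact hC1 _ _
  have hdiv : ∀ p ∈ V, ∑ i, fderiv ℝ (A i) p (Pi.single i 1) = 0 := by
    intro p hp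
    rw [Fin.sum_univ_three]
    have b0 := hasFDerivAt_pull (hHat p hp) (hωat p hp) (e 1) (e 2) (e 0)
    have b1 := hasFDerivAt_pull (hHat p hp) (hωat p hp) (e 2) (e 0) (e 1)
    have b2 := hasFDerivAt_pull (hHat p hp) (hωat p hp) (e 0) (e 1) (e 2)
    have c0 : fderiv ℝ (A 0) p (Pi.single 0 1) = _ := b0
    have c1 : fderiv ℝ (A 1) p (Pi.single 1 1) = _ := b1
    have c2 : fderiv ℝ (A 2) p (Pi.single 2 1) = _ := b2
    rw [c0, c1, c2]
    have hsym : ∀ v w, fderiv ℝ (fderiv ℝ H) p v w = fderiv ℝ (fderiv ℝ H) p w v := by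
      intro v w
      have : IsSymmSndFDerivAt ℝ H p := (hHat p hp).isSymmSndFDerivAt (by simp)
      exact this v w
    have d1 := hanti (H p) hp.2 (fderiv ℝ (fderiv ℝ H) p (e 0) (e 1)) (fderiv ℝ H p (e 2))
    have d2 := hanti (H p) hp.2 (fderiv ℝ (fderiv ℝ H) p (e 0) (e 2)) (fderiv ℝ H p (e 1))
    have d3 := hanti (H p) hp.2 (fderiv ℝ (fderiv ℝ H) p (e 1) (e 2)) (fderiv ℝ H p (e 0))
    have d4 := hcl (H p) hp.2 (fderiv ℝ H p (e 0)) (fderiv ℝ H p (e 1)) (fderiv ℝ H p (e 2))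
    rw [hsym (e 1) (e 0), hsym (e 2) (e 0), hsym (e 2) (e 1)]
    linarith
  obtain ⟨C, hC⟩ := flux_bound ha hVo hAC hdiv
    (by
      intro p hp0 hp1 hp2
      have r1 : |(Ψ p).2.re| ≤ a := by rw [hre]; exact abs_le.2 hp1
      have r2 : |(Ψ p).2.im| ≤ a := by rw [him]; exact abs_le.2 hp2
      refine ⟨?_, ?_⟩
      · have := hKW (Ψ p).1 (by rw [hst]; exact Ioc_subset_Icc_self hp0) (Ψ p).2 r1 r2
        exact this
      · exact h1 (Ψ p).1 (by rw [hst]; exact hp0) (Ψ p).2 r1 r2)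
    (by
      intro p hp0 hp1 hp2 hp3
      have r1 : |(Ψ p).2.re| ≤ a := by rw [hre]; exact abs_le.2 hp1
      have r2 : |(Ψ p).2.im| ≤ a := by rw [him]; exact abs_le.2 hp2
      refine ⟨?_, ?_⟩
      · have := hKW (Ψ p).1 (by rw [hst]; exact hp0) (Ψ p).2 r1 r2
        exact this
      · change F (Ψ p).1 (Ψ p).2 ∈ G
        rcases eq_or_lt_of_le hp0.1 with h | h
        · rw [hst, ← h]
          apply h0 _ r1 r2
          rw [hre, him]
          exact hp3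
        · exact h1 (Ψ p).1 (by rw [hst]; exact ⟨h, hp0.2⟩) (Ψ p).2 r1 r2)
  refine ⟨C, fun s hs => ?_⟩
  have hmp := Complex.volume_preserving_equiv_pi
  have hset : {z : ℂ | |z.re| ≤ a ∧ |z.im| ≤ a}
      = Complex.measurableEquivPi ⁻¹' (Icc (fun _ : Fin 2 => -a) (fun _ => a)) := by
    ext z
    simp only [mem_ofPred_eq, mem_preimage, mem_Icc, Pi.le_def, Complex.measurableEquivPi_apply,
      Fin.forall_fin_two, Matrix.cons_val_zero, Matrix.cons_val_one, abs_le]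
    tauto
  have hint : (∫ z in {z : ℂ | |z.re| ≤ a ∧ |z.im| ≤ a},
        ω (F s z) (fderiv ℝ (F s) z 1) (fderiv ℝ (F s) z Complex.I))
      = ∫ x in Icc (fun _ : Fin 2 => -a) (fun _ => a), A 0 (Fin.insertNth 0 s x) := by
    rw [hset, ← hmp.setIntegral_preimage_emb Complex.measurableEquivPi.measurableEmbedding]
    apply setIntegral_congr_fun
    · exact Complex.measurableEquivPi.measurable measurableSet_Icc
    · intro z hz
      rw [← hset] at hz
      beta_reduce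
      rw [Complex.measurableEquivPi_apply, ins0]
      simp only [Matrix.cons_val_zero, Matrix.cons_val_one]
      set p : Fin 3 → ℝ := ![s, z.re, z.im] with hp
      have hΨp : Ψ p = (s, z) := by
        rw [hΨ]
        simp [hp, Complex.re_add_im]
      have hHp : H p = F s z := by
        change F (Ψ p).1 (Ψ p).2 = _
        rw [hΨp]
      have hWsz : (s, z) ∈ W := hKW s (Ioc_subset_Icc_self hs) z hz.1 hz.2
      have hFd : HasFDerivAt (fun q : ℝ × ℂ => F q.1 q.2)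
          (fderiv ℝ (fun q : ℝ × ℂ => F q.1 q.2) (s, z)) (s, z) :=
        ((hF.contDiffAt (hW.mem_nhds hWsz)).differentiableAt (by norm_num)).hasFDerivAt
      have hHd : fderiv ℝ H p = (fderiv ℝ (fun q : ℝ × ℂ => F q.1 q.2) (s, z)).comp Ψ := by
        have h5 : HasFDerivAt (fun q : ℝ × ℂ => F q.1 q.2)
          (fderiv ℝ (fun q : ℝ × ℂ => F q.1 q.2) (s, z)) (Ψ p) := by rw [hΨp]; exact hFd
        exact (h5.comp p Ψ.hasFDerivAt).fderiv
      have hFs : fderiv ℝ (F s) z = (fderiv ℝ (fun q : ℝ × ℂ => F q.1 q.2) (s, z)).comp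
          (ContinuousLinearMap.inr ℝ ℝ ℂ) := by
        have h6 : HasFDerivAt (fun w : ℂ => (s, w)) (ContinuousLinearMap.inr ℝ ℝ ℂ) z := by
          exact (hasFDerivAt_const s z).prodMk (hasFDerivAt_id z)
        exact (HasFDerivAt.comp (g := fun q : ℝ × ℂ => F q.1 q.2) z hFd h6).fderiv
      have hΨ1 : Ψ (e 1) = (0, 1) := by
        rw [hΨ]; simp [he]
      have hΨ2 : Ψ (e 2) = (0, Complex.I) := by
        rw [hΨ]; simp [he]
      change _ = ω (H p) (fderiv ℝ H p (e 1)) (fderiv ℝ H p (e 2))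
      rw [hHp, hHd, hFs]
      simp [hΨ1, hΨ2]
  rw [hint]
  exact hC s hs

end Vale.Agent.P253.R2.H380
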