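import Mathlib

open Set Metric Filter Topology

namespace Vale.Agent.P253.R2.H380

/-- Second derivative test: at a local maximum the second derivative is nonpositive. -/
lemma deriv_deriv_nonpos_of_isLocalMax {f : ℝ → ℝ} {x : ℝ} (h : IsLocalMax f x)
    (hc : ContinuousAt f x) : deriv (deriv f) x ≤ 0 := by
  by_contra hcon
  have hpos : 0 < deriv (deriv f) x := not_le.1 hcon
  have hd : deriv f x = 0 := h.deriv_eq_zero
  have hmin := isLocalMin_of_deriv_deriv_pos hpos hd hc
  have heq : f =ᶠ[𝓝 x] fun _ => f x := by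
    filter_upwards [h, hmin] with y h1 h2
    exact le_antisymm h1 h2
  have h1 : deriv f =ᶠ[𝓝 x] fun _ => 0 := by
    have := heq.deriv
    simpa using this
  have h2 : deriv (deriv f) x = 0 := by
    rw [h1.deriv_eq]
    simp
  linarith

/-- The second directional derivative at a local maximum is nonpositive. -/
lemma second_dir_nonpos {E : Type*} [NormedAddCommGroup E] [NormedSpace ℝ E] {f : E → ℝ} {z : E}
    {U : Set E} (hU : IsOpen U) (hz : z ∈ U) (hf : ContDiffOn ℝ 2 f U) (h : IsLocalMax f z)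
    (v : E) : fderiv ℝ (fun w => fderiv ℝ f w v) z v ≤ 0 := by
  set φ : ℝ → ℝ := fun t => f (z + t • v) with hφ
  have hline : Continuous fun t : ℝ => z + t • v := by fun_prop
  have h0 : (fun t : ℝ => z + t • v) 0 = z := by simp
  have hUev : ∀ᶠ t in 𝓝 (0 : ℝ), z + t • v ∈ U := by
    apply hline.continuousAt.eventually_mem
    simpa using hU.mem_nhds hz
  have hφmax : IsLocalMax φ 0 := by
    have : Tendsto (fun t : ℝ => z + t • v) (𝓝 0) (𝓝 z) := by
      simpa using hline.tendsto 0
    have h2 := this.eventually h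
    filter_upwards [h2] with t ht
    simp only [hφ]
    simpa using ht
  have hlineD : ∀ t : ℝ, HasDerivAt (fun t : ℝ => z + t • v) v t := by
    intro t
    have h1 : HasDerivAt (fun t : ℝ => t • v) ((1 : ℝ) • v) t := (hasDerivAt_id t).smul_const v
    rw [one_smul] at h1
    exact h1.const_add z
  have hd1 : deriv φ =ᶠ[𝓝 0] fun t => fderiv ℝ f (z + t • v) v := by
    filter_upwards [hUev] with t ht
    have hdf : DifferentiableAt ℝ f (z + t • v) :=
      (hf.contDiffAt (hU.mem_nhds ht)).differentiableAt (by norm_num)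
    exact (hdf.hasFDerivAt.comp_hasDerivAt t (hlineD t)).deriv
  have hfd : DifferentiableAt ℝ (fun w => fderiv ℝ f w v) z := by
    have h1 : ContDiffAt ℝ 1 (fderiv ℝ f) z :=
      (hf.contDiffAt (hU.mem_nhds hz)).fderiv_right (by norm_num)
    have h2 : DifferentiableAt ℝ (fderiv ℝ f) z := h1.differentiableAt (by norm_num)
    exact h2.clm_apply (differentiableAt_const v)
  have hd2 : deriv (deriv φ) 0 = fderiv ℝ (fun w => fderiv ℝ f w v) z v := by
    rw [hd1.deriv_eq]
    have h1 : HasFDerivAt (fun w => fderiv ℝ f w v) (fderiv ℝ (fun w => fderiv ℝ f w v) z)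
        ((fun t : ℝ => z + t • v) 0) := by
      rw [h0]
      exact hfd.hasFDerivAt
    exact (h1.comp_hasDerivAt 0 (hlineD 0)).deriv
  rw [← hd2]
  apply deriv_deriv_nonpos_of_isLocalMax hφmax
  have : ContinuousAt f ((fun t : ℝ => z + t • v) 0) := by
    rw [h0]
    exact (hf.contDiffAt (hU.mem_nhds hz)).continuousAt
  exact ContinuousAt.comp (f := fun t : ℝ => z + t • v) this hline.continuousAt

/-- Second derivatives of the squared distance. -/
lemma sqdist_second_gen {E : Type*} [NormedAddCommGroup E] [InnerProductSpace ℝ E] (c z v : E) :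
    fderiv ℝ (fun w => fderiv ℝ (fun y : E => ‖y - c‖ ^ 2) w v) z v = 2 * ‖v‖ ^ 2 := by
  have h1 : ∀ w : E, HasFDerivAt (fun y : E => ‖y - c‖ ^ 2)
      (2 • (innerSL ℝ (w - c))) w := by
    intro w
    have h := (hasFDerivAt_id (𝕜 := ℝ) w).sub_const c
    have h2 := h.norm_sq
    simpa using h2
  have h2 : (fun w => fderiv ℝ (fun y : E => ‖y - c‖ ^ 2) w v) = fun w => 2 * inner ℝ (w - c) v := by
    funext w
    rw [(h1 w).fderiv]
    simp [inner_sub_left]
  rw [h2]
  have h3 : HasFDerivAt (fun w : E => 2 * inner ℝ (w - c) v)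
      ((2 : ℝ) • (innerSL ℝ v)) z := by
    have h := (hasFDerivAt_id (𝕜 := ℝ) z).sub_const c
    have h4 : HasFDerivAt (fun w : E => inner ℝ v (w - c)) (innerSL ℝ v) z := by
      have h6 : HasFDerivAt (innerSL ℝ v) (innerSL ℝ v) (id z - c) := (innerSL ℝ v).hasFDerivAt
      have := h6.comp z h
      exact this
    have h5 := h4.const_mul 2
    have h7 : (fun w : E => 2 * inner ℝ (w - c) v) = fun w : E => 2 * inner ℝ v (w - c) := by
      funext w
      rw [real_inner_comm]
    rw [h7]
    exact h5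
  rw [h3.fderiv]
  simp

lemma sqdist_second (c z : ℂ) (v : ℂ) :
    fderiv ℝ (fun w => fderiv ℝ (fun y : ℂ => ‖y - c‖ ^ 2) w v) z v = 2 * ‖v‖ ^ 2 :=
  sqdist_second_gen c z v

/-- Maximum principle for subharmonic functions on a disc. -/
theorem max_principle {f : ℂ → ℝ} {c : ℂ} {r A : ℝ} (hf : ContinuousOn f (closedBall c r))
    (hf2 : ContDiffOn ℝ 2 f (ball c r))
    (hΔ : ∀ z ∈ ball c r, 0 ≤ fderiv ℝ (fun w => fderiv ℝ f w 1) z 1
      + fderiv ℝ (fun w => fderiv ℝ f w Complex.I) z Complex.I)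
    (hA : ∀ z ∈ sphere c r, f z ≤ A) : ∀ z ∈ closedBall c r, f z ≤ A := by
  intro z hz
  have hr : 0 ≤ r := le_trans dist_nonneg (mem_closedBall.1 hz)
  by_contra hcon
  have hlt : A < f z := not_le.1 hcon
  set ε : ℝ := (f z - A) / (2 * (r ^ 2 + 1)) with hε
  have hε0 : 0 < ε := by
    apply div_pos (by linarith) (by positivity)
  have hεr : ε * r ^ 2 < f z - A := by
    have h1 : ε * (r ^ 2 + 1) = (f z - A) / 2 := by rw [hε]; field_simp
    nlinarith
  set g : ℂ → ℝ := fun w => f w + ε * ‖w - c‖ ^ 2 with hg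
  have hgc : ContinuousOn g (closedBall c r) := by
    apply hf.add
    fun_prop
  obtain ⟨z0, hz0, hmax⟩ := (isCompact_closedBall c r).exists_isMaxOn ⟨z, hz⟩ hgc
  have hz0b : z0 ∈ ball c r := by
    rcases (lt_or_eq_of_le (mem_closedBall.1 hz0)) with h1 | h1
    · exact h1
    · exfalso
      have h2 := hA z0 (mem_sphere.2 h1)
      have h3 : g z ≤ g z0 := hmax hz
      simp only [hg] at h3
      rw [← dist_eq_norm z0 c, h1] at h3
      have : 0 ≤ ε * ‖z - c‖ ^ 2 := by positivity
      linarith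
  have hloc : IsLocalMax g z0 := hmax.isLocalMax
    (Filter.mem_of_superset (isOpen_ball.mem_nhds hz0b) ball_subset_closedBall)
  have hq : ContDiff ℝ 2 (fun w : ℂ => ε * ‖w - c‖ ^ 2) := by
    apply contDiff_const.mul
    exact (contDiff_id.sub contDiff_const).norm_sq ℝ
  have hg2 : ContDiffOn ℝ 2 g (ball c r) := hf2.add hq.contDiffOn
  have hdir : ∀ v : ℂ, fderiv ℝ (fun w => fderiv ℝ g w v) z0 v
      = fderiv ℝ (fun w => fderiv ℝ f w v) z0 v + ε * (2 * ‖v‖ ^ 2) := by
    intro v
    have h1 : (fun w => fderiv ℝ g w v) =ᶠ[𝓝 z0]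
        fun w => fderiv ℝ f w v + ε * fderiv ℝ (fun y : ℂ => ‖y - c‖ ^ 2) w v := by
      filter_upwards [isOpen_ball.mem_nhds hz0b] with w hw
      have ha : DifferentiableAt ℝ f w :=
        (hf2.contDiffAt (isOpen_ball.mem_nhds hw)).differentiableAt (by norm_num)
      have hb : DifferentiableAt ℝ (fun y : ℂ => ‖y - c‖ ^ 2) w := by
        have : ContDiff ℝ 2 (fun y : ℂ => ‖y - c‖ ^ 2) :=
          (contDiff_id.sub contDiff_const).norm_sq ℝ
        exact this.contDiffAt.differentiableAt (by norm_num)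
      have hc' : fderiv ℝ g w = fderiv ℝ f w + ε • fderiv ℝ (fun y : ℂ => ‖y - c‖ ^ 2) w := by
        have := (ha.hasFDerivAt.add (hb.hasFDerivAt.const_mul ε)).fderiv
        exact this
      rw [hc']
      simp
    rw [h1.fderiv_eq]
    have ha : DifferentiableAt ℝ (fun w => fderiv ℝ f w v) z0 := by
      have h1 : ContDiffAt ℝ 1 (fderiv ℝ f) z0 :=
        (hf2.contDiffAt (isOpen_ball.mem_nhds hz0b)).fderiv_right (by norm_num)
      exact (h1.differentiableAt (by norm_num)).clm_apply (differentiableAt_const v)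
    have hb : DifferentiableAt ℝ (fun w => fderiv ℝ (fun y : ℂ => ‖y - c‖ ^ 2) w v) z0 := by
      have h0 : ContDiff ℝ 2 (fun y : ℂ => ‖y - c‖ ^ 2) :=
        (contDiff_id.sub contDiff_const).norm_sq ℝ
      have h1 : ContDiffAt ℝ 1 (fderiv ℝ (fun y : ℂ => ‖y - c‖ ^ 2)) z0 :=
        h0.contDiffAt.fderiv_right (by norm_num)
      exact (h1.differentiableAt (by norm_num)).clm_apply (differentiableAt_const v)
    have h2 := (ha.hasFDerivAt.add (hb.hasFDerivAt.const_mul ε)).fderiv
    have h3 : fderiv ℝ (fun w => fderiv ℝ f w v + ε * fderiv ℝ (fun y : ℂ => ‖y - c‖ ^ 2) w v) z0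
        = fderiv ℝ (fun w => fderiv ℝ f w v) z0
          + ε • fderiv ℝ (fun w => fderiv ℝ (fun y : ℂ => ‖y - c‖ ^ 2) w v) z0 := h2
    rw [h3]
    simp only [add_apply, smul_apply, smul_eq_mul,
      sqdist_second]
  have e1 := second_dir_nonpos isOpen_ball hz0b hg2 hloc 1
  have e2 := second_dir_nonpos isOpen_ball hz0b hg2 hloc Complex.I
  rw [hdir] at e1 e2
  have e3 := hΔ z0 hz0b
  simp only [norm_one, Complex.norm_I] at e1 e2
  linarith

end Vale.Agent.P253.R2.H380
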