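import Vale.Agent.P253.R2.H66.Est3
import Vale.Agent.P253.R2.H957.Germs

/-!
# P253 (helper380): strong openness over the punctured disc, final assembly
-/

open Complex Filter Topology Set Metric MeasureTheory
open scoped ContDiff InnerProductSpace

noncomputable section

namespace Vale.Agent.P253.R2.H380

open Vale.Agent.P253.R2.H66 Vale.Agent.P253.R2.H957

/-- The annuli `ann (4 ^ (2 j))` are pairwise disjoint. -/
theorem ann_disjoint (N : ℕ) :
    Pairwise (Function.onFun Disjoint fun i : ℕ => ann (4 ^ (2 * (i + N)))) := by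
  have key : ∀ i j : ℕ, i < j → Disjoint (ann (4 ^ (2 * (i + N)))) (ann (4 ^ (2 * (j + N)))) := by
    intro i j hij
    rw [Set.disjoint_left]
    intro z hz hz'
    have h1 := hz.1
    have h2 := hz'.2
    obtain ⟨k, rfl⟩ := Nat.exists_eq_add_of_lt hij
    have h3 : (4 : ℝ) ^ (2 * (i + k + 1 + N)) = 4 ^ (2 * (i + N)) * (16 * 4 ^ (2 * k)) := by
      rw [show 2 * (i + k + 1 + N) = 2 * (i + N) + 2 + 2 * k by ring, pow_add, pow_add]
      norm_num
      ring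
    have h4 : (1 : ℝ) ≤ 4 ^ (2 * k) := one_le_pow₀ (by norm_num)
    rw [h3] at h2
    have h5 : (0 : ℝ) ≤ 4 ^ (2 * (i + N)) * ‖z‖ ^ 2 := by positivity
    nlinarith
  intro i j hij
  rcases lt_or_gt_of_ne hij with h | h
  · exact key i j h
  · exact (key j i h).symm

theorem ann_subset_pb {R A : ℝ} (hA : 0 < A) (hR : 0 < R) (h : 1 < A * R ^ 2) : ann A ⊆ pb R := by
  intro z hz
  rw [mem_pb]
  constructor
  · by_contra hcon
    push Not at hcon
    have h1 : R ^ 2 ≤ ‖z‖ ^ 2 := by gcongr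
    have h2 : A * R ^ 2 ≤ A * ‖z‖ ^ 2 := by gcongr
    linarith [hz.2]
  · rintro rfl
    have := hz.1
    norm_num at this

/-- The integrals over the annuli of an integrable function cannot be bounded below by a multiple
of `1 / j`. -/
theorem ann_contra {R : ℝ} (hR : 0 < R) {q : ℂ → ℝ}
    (hq : IntegrableOn q (pb R)) {m K I : ℝ} (hm : 0 < m) (hK : 0 < K)
    (h : ∀ j : ℕ, 1 ≤ j → 1 < (4 : ℝ) ^ j * R ^ 2 →
      m ≤ I * (1 / 4) ^ j + K * j * ∫ z in ann (4 ^ j), q z) : False := by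
  obtain ⟨N, hN⟩ : ∃ N : ℕ, 1 < (4 : ℝ) ^ N * R ^ 2 := by
    obtain ⟨N, hN⟩ := pow_unbounded_of_one_lt (1 / R ^ 2) (show (1 : ℝ) < 4 by norm_num)
    refine ⟨N, ?_⟩
    rwa [div_lt_iff₀ (by positivity)] at hN
  have hjR : ∀ i : ℕ, 1 < (4 : ℝ) ^ (2 * (i + (N + 1))) * R ^ 2 := by
    intro i
    refine hN.trans_le ?_
    gcongr
    · norm_num
    · omega
  have hsub : (⋃ i : ℕ, ann (4 ^ (2 * (i + (N + 1))))) ⊆ pb R :=
    iUnion_subset fun i => ann_subset_pb (by positivity) hR (hjR i)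
  have hsum := (hasSum_integral_iUnion (f := q) (μ := volume)
    (fun i : ℕ => (isClosed_ann (4 ^ (2 * (i + (N + 1))))).measurableSet)
    (ann_disjoint (N + 1)) (hq.mono_set hsub)).summable
  have hlim : Tendsto (fun i : ℕ => I * (1 / 4 : ℝ) ^ (2 * (i + (N + 1)))) atTop (𝓝 (I * 0)) := by
    apply Tendsto.const_mul
    refine (tendsto_pow_atTop_nhds_zero_of_lt_one (by norm_num) (by norm_num)).comp ?_
    refine tendsto_atTop_mono (fun i => ?_) tendsto_id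
    simp only [id]
    omega
  rw [mul_zero] at hlim
  have hev := hlim.eventually (gt_mem_nhds (show 0 < m / 2 by positivity))
  have hS : Summable fun i : ℕ => 1 / (((i + (N + 1) : ℕ) : ℝ)) := by
    refine Summable.of_norm_bounded_eventually_nat (hsum.mul_left (4 * K / m)) ?_
    filter_upwards [hev] with i hi
    have h1 := h (2 * (i + (N + 1))) (by omega) (hjR i)
    have h2 : (0 : ℝ) < ((i + (N + 1) : ℕ) : ℝ) := by positivity
    rw [Real.norm_eq_abs, abs_of_nonneg (by positivity), div_le_iff₀ h2]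
    have h3 : m / 2 ≤ K * ((2 * (i + (N + 1)) : ℕ) : ℝ) * ∫ z in ann (4 ^ (2 * (i + (N + 1)))), q z := by
      linarith
    rw [Nat.cast_mul, Nat.cast_ofNat] at h3
    have h4 : 4 * K / m * (∫ z in ann (4 ^ (2 * (i + (N + 1)))), q z) * ((i + (N + 1) : ℕ) : ℝ) =
        (2 / m) * (K * (2 * ((i + (N + 1) : ℕ) : ℝ)) * ∫ z in ann (4 ^ (2 * (i + (N + 1)))), q z) := by
      field_simp
      ring
    rw [h4]
    have h5 : (2 / m) * (m / 2) = 1 := by field_simp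
    rw [← h5]
    gcongr
  exact Real.not_summable_one_div_natCast ((summable_nat_add_iff (N + 1)).1 hS)

/-- on the annulus the exponent `-1 / (j + 1)` is harmless -/
theorem rpow_le_two {j : ℕ} {z : ℂ} (hz : 1 / 4 ≤ (4 : ℝ) ^ j * ‖z‖ ^ 2) (hz0 : z ≠ 0) :
    ‖z‖ ^ (-(1 / ((j : ℝ) + 1))) ≤ 2 := by
  have hz1 : 0 < ‖z‖ := norm_pos_iff.2 hz0
  have h1 : ((2 : ℝ) ^ (j + 1))⁻¹ ≤ ‖z‖ := by
    have h2 : (((2 : ℝ) ^ (j + 1))⁻¹) ^ 2 ≤ ‖z‖ ^ 2 := by
      have h3 : (4 : ℝ) ^ j = ((2 : ℝ) ^ j) ^ 2 := by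
        rw [← pow_mul, mul_comm, pow_mul]; norm_num
      have h4 : (0 : ℝ) < 2 ^ j := by positivity
      have h5 : (((2 : ℝ) ^ (j + 1))⁻¹) ^ 2 = 1 / 4 / ((2 : ℝ) ^ j) ^ 2 := by
        rw [pow_succ (2 : ℝ) j]
        field_simp
        norm_num
      rw [h3] at hz
      rw [h5, div_le_iff₀ (by positivity)]
      linarith
    exact le_of_sq_le_sq h2 hz1.le
  have hj : (0 : ℝ) < (j : ℝ) + 1 := by positivity
  calc ‖z‖ ^ (-(1 / ((j : ℝ) + 1))) ≤ (((2 : ℝ) ^ (j + 1))⁻¹) ^ (-(1 / ((j : ℝ) + 1))) :=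
        Real.rpow_le_rpow_of_nonpos (by positivity) h1 (by
          rw [neg_nonpos]; positivity)
    _ = 2 := by
        rw [Real.rpow_neg (by positivity), Real.inv_rpow (by positivity), inv_inv,
          ← Real.rpow_natCast 2 (j + 1), ← Real.rpow_mul (by norm_num)]
        push_cast
        rw [mul_one_div_cancel hj.ne', Real.rpow_one]

variable {E : Type*} [NormedAddCommGroup E] [InnerProductSpace ℂ E] [FiniteDimensional ℂ E]

/-- strong openness, radius at most one -/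
theorem strong_openness_aux {R : ℝ} (hR : 0 < R) (hR1 : R ≤ 1) {C : ℝ} {G g : ℂ → E →L[ℂ] E}
    (hG : ContDiffOn ℝ 2 G (pb R)) (hw : IsWt R C G g)
    (hcurv : ∀ z ∈ pb R, CurvGE G (fun _ => 0) z)
    {v : ℂ → E} (hv : DifferentiableOn ℂ v (ball 0 R)) (hint : IntegrableOn (wq g v) (pb R)) :
    ∃ ε : ℝ, 0 < ε ∧ ∃ r : ℝ, 0 < r ∧ r < R ∧
      IntegrableOn (fun z => wq g v z * ‖z‖ ^ (-ε)) (ball 0 r \ {0}) := by
  by_contra hcon
  push Not at hcon
  have hm : MeasurableSet (pb R) := (isOpen_pb R).measurableSet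
  set V : ℂ → E := fun z => z • v z with hVdef
  have hV : DifferentiableOn ℂ V (ball 0 R) := differentiableOn_id.smul hv
  have hVw : ∀ z, wq g V z = ‖z‖ ^ 2 * wq g v z := fun z => wq_smul g (fun z => z) v z
  have hPV : ¬ GP g V := by
    rintro ⟨-, ε, hε, r, hr, hi⟩
    refine hcon ε hε (min r (R / 2)) (by positivity) ((min_le_right _ _).trans_lt (by linarith)) ?_
    refine (hi.mono_set (sdiff_subset_sdiff_left (ball_subset_ball (min_le_left _ _)))).congr_fun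
      (fun z hz => ?_) (measurableSet_ball.diff (measurableSet_singleton _))
    have hz0 : 0 < ‖z‖ := norm_pos_iff.2 hz.2
    simp only
    rw [hVw, mul_comm (‖z‖ ^ 2), mul_assoc, ← Real.rpow_natCast ‖z‖ 2, ← Real.rpow_add hz0]
    congr 2
    push_cast
    ring
  obtain ⟨m, hm0, hlow⟩ := exists_lower_bound hw hR hV hPV
  obtain ⟨K, hK, hest⟩ := est hR hR1 hG hw.pos hw.cont hw.right hw.left hcurv
  have hVpb : DifferentiableOn ℂ V (pb R) := hV.mono sdiff_subset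
  have hVi : IntegrableOn (wq g V) (pb R) := by
    have h1 : IntegrableOn (fun z => ‖z‖ ^ 2 * wq g v z) (pb R) := by
      refine Integrable.bdd_mul (c := 1) hint
        (continuous_norm.pow 2).aestronglyMeasurable ?_
      filter_upwards [ae_restrict_mem hm] with z hz
      have h3 : ‖z‖ ≤ 1 := ((mem_pb.1 hz).1.le).trans hR1
      rw [Real.norm_eq_abs, abs_of_nonneg (by positivity)]
      exact pow_le_one₀ (norm_nonneg _) h3
    exact h1.congr_fun (fun z _ => (hVw z).symm) hm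
  have hvnn : ∀ z ∈ pb R, 0 ≤ wq g v z := fun z hz => hw.wq_nonneg hz v
  refine ann_contra hR hint (m := m) (K := 2 * K) (I := 2 * ∫ z in pb R, wq g v z) hm0
    (by positivity) ?_
  intro j hj hjR
  have hj1 : (0 : ℝ) < (j : ℝ) + 1 := by positivity
  obtain ⟨W, hWd, hWi, hWb, hWVi⟩ := hest V hVpb hVi j hj hjR (1 / ((j : ℝ) + 1)) (by positivity)
    (by rw [div_le_one hj1]; linarith [(Nat.cast_nonneg j : (0 : ℝ) ≤ j)])
  -- extend `W`
  have hW2 : IntegrableOn (fun z => ‖W z‖ ^ 2) (ball 0 R \ {0}) := by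
    refine Integrable.mono' (hWi.const_mul C) ((hWd.continuousOn.norm.pow 2).aestronglyMeasurable
      hm) ?_
    filter_upwards [ae_restrict_mem hm] with z hz
    rw [Real.norm_eq_abs, abs_of_nonneg (by positivity)]
    exact hw.norm_sq_le hz W
  obtain ⟨W', hW'd, hW'eq⟩ := l2_removable hR hWd hW2
  have hW'wq : ∀ z ∈ pb R, wq g W' z = wq g W z := fun z hz => by simp only [wq, hW'eq hz]
  have hW'i : IntegrableOn (wq g W') (ball 0 R \ {0}) :=
    hWi.congr_fun (fun z hz => (hW'wq z hz).symm) hm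
  have hA0 : (0 : ℝ) < 4 ^ j := by positivity
  have hGP : GP g (fun z => W' z - V z) := by
    refine ⟨(hW'd.sub hV).analyticAt (ball_mem_nhds _ hR), 1 / ((j : ℝ) + 1), by positivity,
      min R (1 / 2 ^ (j + 1)), by positivity, ?_⟩
    have hsub : ball (0 : ℂ) (min R (1 / 2 ^ (j + 1))) \ {0} ⊆
        {z ∈ pb R | (4 : ℝ) ^ j * ‖z‖ ^ 2 < 1 / 4} := by
      intro z hz
      have hz1 := mem_ball_zero_iff.1 hz.1
      have hz2 : ‖z‖ < R := hz1.trans_le (min_le_left _ _)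
      have hz3 : ‖z‖ < 1 / 2 ^ (j + 1) := hz1.trans_le (min_le_right _ _)
      refine ⟨mem_pb.2 ⟨hz2, hz.2⟩, ?_⟩
      have h1 : ‖z‖ ^ 2 < (1 / 2 ^ (j + 1)) ^ 2 := by gcongr
      have h2 : (4 : ℝ) ^ j * (1 / 2 ^ (j + 1)) ^ 2 = 1 / 4 := by
        rw [show (4 : ℝ) = 2 ^ 2 by norm_num, ← pow_mul, div_pow, one_pow, ← pow_mul,
          show (j + 1) * 2 = 2 * j + 2 by ring, pow_add]
        field_simp
      calc (4 : ℝ) ^ j * ‖z‖ ^ 2 < 4 ^ j * (1 / 2 ^ (j + 1)) ^ 2 := by gcongr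
        _ = 1 / 4 := h2
    refine (hWVi.mono_set hsub).congr_fun (fun z hz => ?_)
      (measurableSet_ball.diff (measurableSet_singleton _))
    have hz' : z ∈ pb R := (hsub hz).1
    simp only [wq, hW'eq hz']
    rw [mul_comm]
  have h1 := hlow W' hW'd hGP hW'i
  have h2 : ∫ z in ball 0 R \ {0}, wq g W' z = ∫ z in pb R, (⟪W z, g z (W z)⟫_ℂ).re :=
    setIntegral_congr_fun hm fun z hz => hW'wq z hz
  rw [h2] at h1
  refine (h1.trans hWb).trans ?_
  have hI : ∫ z in {z ∈ pb R | (4 : ℝ) ^ j * ‖z‖ ^ 2 ≤ 1}, (⟪V z, g z (V z)⟫_ℂ).re ≤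
      (∫ z in pb R, wq g v z) * (1 / 4) ^ j := by
    have hc : Continuous fun z : ℂ => (4 : ℝ) ^ j * ‖z‖ ^ 2 := by fun_prop
    have hms : MeasurableSet {z ∈ pb R | (4 : ℝ) ^ j * ‖z‖ ^ 2 ≤ 1} :=
      hm.inter (isClosed_le hc continuous_const).measurableSet
    have hss : {z ∈ pb R | (4 : ℝ) ^ j * ‖z‖ ^ 2 ≤ 1} ⊆ pb R := fun z hz => hz.1
    rw [mul_comm, ← integral_const_mul]
    calc ∫ z in {z ∈ pb R | (4 : ℝ) ^ j * ‖z‖ ^ 2 ≤ 1}, (⟪V z, g z (V z)⟫_ℂ).re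
        ≤ ∫ z in {z ∈ pb R | (4 : ℝ) ^ j * ‖z‖ ^ 2 ≤ 1}, (1 / 4) ^ j * wq g v z := by
          refine setIntegral_mono_on (hVi.mono_set hss) ((hint.mono_set hss).const_mul _) hms ?_
          intro z hz
          have h3 : (⟪V z, g z (V z)⟫_ℂ).re = ‖z‖ ^ 2 * wq g v z := hVw z
          rw [h3]
          have h4 : ‖z‖ ^ 2 ≤ (1 / 4) ^ j := by
            rw [div_pow, one_pow, le_div_iff₀ hA0]
            linarith [hz.2]
          have h5 := hvnn z hz.1
          gcongr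
      _ ≤ ∫ z in pb R, (1 / 4) ^ j * wq g v z := by
          refine setIntegral_mono_set (hint.const_mul _) ?_ hss.eventuallyLE
          filter_upwards [ae_restrict_mem hm] with z hz
          have h5 := hvnn z hz
          simp only [Pi.zero_apply]
          positivity
  have hann : ann ((4 : ℝ) ^ j) ⊆ pb R := ann_subset_pb hA0 hR hjR
  have hJ : ∫ z in ann (4 ^ j), ‖z‖ ^ (-(2 + 1 / ((j : ℝ) + 1))) * (⟪V z, g z (V z)⟫_ℂ).re ≤
      2 * ∫ z in ann (4 ^ j), wq g v z := by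
    have hma : MeasurableSet (ann ((4 : ℝ) ^ j)) := (isClosed_ann _).measurableSet
    rw [← integral_const_mul]
    have hpt : ∀ z ∈ ann ((4 : ℝ) ^ j),
        ‖z‖ ^ (-(2 + 1 / ((j : ℝ) + 1))) * (⟪V z, g z (V z)⟫_ℂ).re ≤ 2 * wq g v z := by
      intro z hz
      have hz0 : z ≠ 0 := (mem_pb.1 (hann hz)).2
      have hz1 : 0 < ‖z‖ := norm_pos_iff.2 hz0
      have h3 : (⟪V z, g z (V z)⟫_ℂ).re = ‖z‖ ^ 2 * wq g v z := hVw z
      rw [h3, ← mul_assoc, ← Real.rpow_natCast ‖z‖ 2, ← Real.rpow_add hz1]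
      have h4 := rpow_le_two hz.1 hz0
      have h5 := hvnn z (hann hz)
      have h6 : -(2 + 1 / ((j : ℝ) + 1)) + ((2 : ℕ) : ℝ) = -(1 / ((j : ℝ) + 1)) := by
        push_cast; ring
      rw [h6]
      gcongr
    refine integral_mono_of_nonneg ?_ ((hint.mono_set hann).const_mul 2) ?_
    · filter_upwards [ae_restrict_mem hma] with z hz
      have h3 : (⟪V z, g z (V z)⟫_ℂ).re = ‖z‖ ^ 2 * wq g v z := hVw z
      have h5 := hvnn z (hann hz)
      simp only [Pi.zero_apply]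
      rw [h3]
      positivity
    · filter_upwards [ae_restrict_mem hma] with z hz
      exact hpt z hz
  have hKj : (0 : ℝ) ≤ K * j := by positivity
  calc 2 * (∫ z in {z ∈ pb R | (4 : ℝ) ^ j * ‖z‖ ^ 2 ≤ 1}, (⟪V z, g z (V z)⟫_ℂ).re) +
        K * j * ∫ z in ann (4 ^ j), ‖z‖ ^ (-(2 + 1 / ((j : ℝ) + 1))) * (⟪V z, g z (V z)⟫_ℂ).re
      ≤ 2 * ((∫ z in pb R, wq g v z) * (1 / 4) ^ j) +
        K * j * (2 * ∫ z in ann (4 ^ j), wq g v z) := by gcongr
    _ = _ := by ring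

/-- **Strong openness over the punctured disc** (module M4). -/
theorem strong_openness {R : ℝ} (hR : 0 < R) {C : ℝ} {G g : ℂ → E →L[ℂ] E}
    (hG : ContDiffOn ℝ 2 G (ball 0 R \ {0})) (hpos : ∀ z ∈ ball (0 : ℂ) R \ {0}, 0 ≤ G z)
    (hg : ContinuousOn g (ball 0 R \ {0}))
    (hGg : ∀ z ∈ ball (0 : ℂ) R \ {0}, ∀ v, G z (g z v) = v)
    (hgG : ∀ z ∈ ball (0 : ℂ) R \ {0}, ∀ v, g z (G z v) = v)
    (hcurv : ∀ z ∈ ball (0 : ℂ) R \ {0}, CurvGE G (fun _ => 0) z)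
    (hC : ∀ z ∈ ball (0 : ℂ) R \ {0}, ‖G z‖ ≤ C)
    {v : ℂ → E} (hv : DifferentiableOn ℂ v (ball 0 R))
    (hint : IntegrableOn (fun z => (⟪v z, g z (v z)⟫_ℂ).re) (ball 0 R \ {0})) :
    ∃ ε : ℝ, 0 < ε ∧ ∃ r : ℝ, 0 < r ∧ r < R ∧
      IntegrableOn (fun z => (⟪v z, g z (v z)⟫_ℂ).re * ‖z‖ ^ (-ε)) (ball 0 r \ {0}) := by
  have hsub : ball (0 : ℂ) (min R 1) \ {0} ⊆ ball 0 R \ {0} :=
    sdiff_subset_sdiff_left (ball_subset_ball (min_le_left _ _))
  obtain ⟨ε, hε, r, hr, hrR, hi⟩ := strong_openness_aux (R := min R 1) (C := C) (by positivity)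
    (min_le_right _ _) (hG.mono hsub)
    ⟨fun z hz => hpos z (hsub hz), hg.mono hsub, fun z hz => hGg z (hsub hz),
      fun z hz => hgG z (hsub hz), fun z hz => hC z (hsub hz)⟩
    (fun z hz => hcurv z (hsub hz)) (hv.mono (ball_subset_ball (min_le_left _ _)))
    (hint.mono_set hsub)
  exact ⟨ε, hε, r, hr, hrR.trans_le (min_le_left _ _), hi⟩

end Vale.Agent.P253.R2.H380
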